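import Mathlib
import Vale.Agent.Lib.P335.Defs
import Vale.Agent.Lib.P335.Switch
import Vale.Agent.Lib.P335.Count
import Vale.Agent.Lib.P335.Connect
import Vale.Agent.Lib.P335.Mixing

namespace Vale.Agent.Results.P335.B_PolyInRealizations

open Vale.Agent.Lib.P335

/-- Mixing time bound for the switch chain in terms of the number of realizations:
for every `n ≥ 4` and every degree vector `d` on `Fin n`, after any number
`t ≥ 96 * C(n,4) * |Ω_d|^4` of steps the chain started at any realization is within total
variation distance `1/4` of the uniform distribution on `Ω_d`. -/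
theorem result (n : ℕ) (hn : 4 ≤ n) (d : Fin n → ℕ) (t : ℕ)
    (ht : 96 * n.choose 4 * (realizations n d).card ^ 4 ≤ t) :
    ∀ G ∈ realizations n d, tvToUniform n d t G ≤ 1 / 4 := by
  classical
  intro G0 hG0
  have hc : (0 : ℝ) < (n.choose 4 : ℝ) := by exact_mod_cast Nat.choose_pos hn
  -- the transition graph on the set of realizations
  let Γ : SimpleGraph (↥(realizations n d)) :=
    SimpleGraph.fromRel (fun x y => SwitchRel n x.1 y.1)
  have hreach : ∀ (H : SimpleGraph (Fin n)), Reach n G0 H → ∀ hH : H ∈ realizations n d,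
      Γ.Reachable ⟨G0, hG0⟩ ⟨H, hH⟩ := by
    intro H h
    induction h with
    | refl => intro hH; exact SimpleGraph.Reachable.refl _
    | tail hGK hKH ih =>
      rename_i K H'
      intro hH
      have hK : K ∈ realizations n d := reach_mem d G0 K hG0 hGK
      have hadj : Γ.Adj ⟨K, hK⟩ ⟨H', hH⟩ := by
        rw [SimpleGraph.fromRel_adj]
        refine ⟨?_, Or.inl hKH⟩
        intro heq
        obtain ⟨m, _, _, hne⟩ := hKH
        exact hne (congrArg Subtype.val heq).symm
      exact (ih hK).trans hadj.reachable
  have hconn : Γ.Connected := by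
    have : Nonempty (↥(realizations n d)) := ⟨⟨G0, hG0⟩⟩
    refine ⟨?_⟩
    intro x y
    have h1 : Γ.Reachable ⟨G0, hG0⟩ x := hreach x.1 (reach_all d G0 x.1 hG0 x.2) x.2
    have h2 : Γ.Reachable ⟨G0, hG0⟩ y := hreach y.1 (reach_all d G0 y.1 hG0 y.2) y.2
    exact h1.symm.trans h2
  have hq : (0 : ℝ) < 1 / (12 * (n.choose 4 : ℝ)) := by positivity
  have hmix := mixing_bound (β := ↥(realizations n d))
    (fun x y => kernel n x.1 y.1) (1 / (12 * (n.choose 4 : ℝ))) hq
    (fun x y => kernel_symm x.1 y.1)
    (fun x y => kernel_nonneg n x.1 y.1)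
    (fun x => by
      rw [Finset.sum_coe_sort (realizations n d) (fun H => kernel n x.1 H)]
      exact kernel_row_sum hn d x.1 x.2)
    (fun x => by
      show 1 / 2 ≤ kernel n x.1 x.1
      unfold kernel
      rw [if_pos rfl]
      have : (0 : ℝ) ≤ (1 / 2) * (1 / (n.choose 4 : ℝ)) * (1 / 6) *
          (((moves n).filter (fun m => applyMove x.1 m = x.1)).card : ℝ) := by positivity
      linarith)
    Γ hconn
    (fun x y hxy => by
      rw [SimpleGraph.fromRel_adj] at hxy
      rcases hxy.2 with h | h
      · exact kernel_ge_of_switch hn x.1 y.1 h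
      · exact kernel_ge_of_switch hn x.1 y.1 (switchRel_symm y.1 x.1 h))
    (fun s y => walk n d s G0 y.1) ⟨G0, hG0⟩
    (by
      show walk n d 0 G0 G0 = 1
      rw [walk_zero, if_pos rfl])
    (fun y hy => by
      show walk n d 0 G0 y.1 = 0
      rw [walk_zero, if_neg]
      intro h
      exact hy (Subtype.ext h))
    (fun s y => by
      show walk n d (s + 1) G0 y.1 = ∑ z : ↥(realizations n d), walk n d s G0 z.1 * kernel n z.1 y.1
      rw [walk_succ, Finset.sum_coe_sort (realizations n d)
        (fun K => walk n d s G0 K * kernel n K y.1)])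
    t
    (by
      rw [Fintype.card_coe]
      have h1 : ((96 * n.choose 4 * (realizations n d).card ^ 4 : ℕ) : ℝ) ≤ (t : ℝ) := by
        exact_mod_cast ht
      push_cast at h1
      rw [div_mul_eq_mul_div, one_mul, le_div_iff₀ (by positivity)]
      nlinarith [h1])
  rw [Fintype.card_coe] at hmix
  unfold tvToUniform
  rw [← Finset.sum_coe_sort (realizations n d)
    (fun H => |walk n d t G0 H - 1 / ((realizations n d).card : ℝ)|)]
  exact hmix

end Vale.Agent.Results.P335.B_PolyInRealizations
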