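import Mathlib

namespace Vale.Agent.Results.P335.QuarticLowerBound

open Finset

open Classical in
/-- The labelled simple graphs on the vertex set `Fin n` having degree `d i` at each vertex `i`. -/
noncomputable def realizations (n : ℕ) (d : Fin n → ℕ) : Finset (SimpleGraph (Fin n)) :=
  Finset.univ.filter (fun G => ∀ i, G.degree i = d i)

/-- `F` is a perfect matching of the complete graph on `S`: two non-loop edges whose
endpoints are exactly the elements of `S`. -/
def IsPerfectMatchingOn {n : ℕ} (S : Finset (Fin n)) (F : Finset (Sym2 (Fin n))) : Prop :=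
  F.card = 2 ∧ (∀ e ∈ F, ¬ e.IsDiag) ∧ ∀ v, v ∈ S ↔ ∃ e ∈ F, v ∈ e

open Classical in
/-- All triples `(S, F, F')`: `S` a 4-element vertex set and `(F, F')` an ordered pair of
distinct perfect matchings of the complete graph on `S`. -/
noncomputable def moves (n : ℕ) :
    Finset (Finset (Fin n) × Finset (Sym2 (Fin n)) × Finset (Sym2 (Fin n))) :=
  Finset.univ.filter (fun m => m.1.card = 4 ∧ IsPerfectMatchingOn m.1 m.2.1 ∧
    IsPerfectMatchingOn m.1 m.2.2 ∧ m.2.1 ≠ m.2.2)

open Classical in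
/-- The result of attempting the move `(S, F, F')` at `G`: if both edges of `F` are present and
both edges of `F'` are absent, replace `F` by `F'`; otherwise stay at `G`. -/
noncomputable def applyMove {n : ℕ} (G : SimpleGraph (Fin n))
    (m : Finset (Fin n) × Finset (Sym2 (Fin n)) × Finset (Sym2 (Fin n))) : SimpleGraph (Fin n) :=
  if (∀ e ∈ m.2.1, e ∈ G.edgeSet) ∧ (∀ e ∈ m.2.2, e ∉ G.edgeSet) then
    SimpleGraph.fromEdgeSet
      ((G.edgeSet \ (m.2.1 : Set (Sym2 (Fin n)))) ∪ (m.2.2 : Set (Sym2 (Fin n))))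
  else G

open Classical in
/-- One-step transition probability of the switch chain from `G` to `H`: with probability `1/2`
stay; otherwise a uniform 4-set `S` (probability `1 / C(n,4)`), then one of the six ordered pairs
of distinct perfect matchings on `S` (probability `1/6`), then the attempted move. -/
noncomputable def kernel (n : ℕ) (G H : SimpleGraph (Fin n)) : ℝ :=
  (if H = G then 1 / 2 else 0) +
    (1 / 2) * (1 / (n.choose 4 : ℝ)) * (1 / 6) *
      (((moves n).filter (fun m => applyMove G m = H)).card : ℝ)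

open Classical in
/-- `walk n d t G H` is the `t`-step transition probability `P^t(G, H)` of the switch chain on
the realizations of `d`: `P^0(G, H) = 1` if `H = G` and `0` otherwise, and
`P^(t+1)(G, H) = ∑ K ∈ realizations n d, P^t(G, K) * P(K, H)`. -/
noncomputable def walk (n : ℕ) (d : Fin n → ℕ) (t : ℕ) :
    SimpleGraph (Fin n) → SimpleGraph (Fin n) → ℝ :=
  Nat.rec (motive := fun _ => SimpleGraph (Fin n) → SimpleGraph (Fin n) → ℝ)
    (fun G H => if H = G then 1 else 0)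
    (fun _ prev G H => ∑ K ∈ realizations n d, prev G K * kernel n K H) t

/-- Total variation distance between the `t`-step distribution started at `G` and the uniform
distribution on the realizations of `d`. -/
noncomputable def tvToUniform (n : ℕ) (d : Fin n → ℕ) (t : ℕ) (G : SimpleGraph (Fin n)) : ℝ :=
  (1 / 2) * ∑ H ∈ realizations n d, |walk n d t G H - 1 / ((realizations n d).card : ℝ)|

theorem kernel_nonneg (n : ℕ) (G H : SimpleGraph (Fin n)) : 0 ≤ kernel n G H := by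
  unfold kernel
  positivity

open Classical in
theorem walk_zero (n : ℕ) (d : Fin n → ℕ) (G H : SimpleGraph (Fin n)) :
    walk n d 0 G H = if H = G then 1 else 0 := rfl

theorem walk_succ (n : ℕ) (d : Fin n → ℕ) (t : ℕ) (G H : SimpleGraph (Fin n)) :
    walk n d (t + 1) G H = ∑ K ∈ realizations n d, walk n d t G K * kernel n K H := rfl

theorem walk_nonneg (n : ℕ) (d : Fin n → ℕ) (t : ℕ) (G H : SimpleGraph (Fin n)) :
    0 ≤ walk n d t G H := by
  induction t generalizing H with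
  | zero => rw [walk_zero]; split_ifs <;> norm_num
  | succ t ih =>
    rw [walk_succ]
    exact Finset.sum_nonneg (fun K _ => mul_nonneg (ih K) (kernel_nonneg n K H))

variable {n : ℕ}

theorem adj_iff (p q r u v w : Fin n) :
    (SimpleGraph.fromEdgeSet
      ((({s(p, q), s(r, u)} : Finset (Sym2 (Fin n))) : Set (Sym2 (Fin n))))).Adj v w ↔
      ((v = p ∧ w = q) ∨ (v = q ∧ w = p) ∨ (v = r ∧ w = u) ∨ (v = u ∧ w = r)) ∧ v ≠ w := by
  simp [SimpleGraph.fromEdgeSet_adj]
  tauto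

theorem degree_pairGraph (p q r u : Fin n) (hpq : p ≠ q) (hru : r ≠ u) (hpr : p ≠ r)
    (hpu : p ≠ u) (hqr : q ≠ r) (hqu : q ≠ u) (v : Fin n)
    [Fintype ((SimpleGraph.fromEdgeSet
      ((({s(p, q), s(r, u)} : Finset (Sym2 (Fin n))) : Set (Sym2 (Fin n))))).neighborSet v)] :
    (SimpleGraph.fromEdgeSet
      ((({s(p, q), s(r, u)} : Finset (Sym2 (Fin n))) : Set (Sym2 (Fin n))))).degree v =
      if v = p ∨ v = q ∨ v = r ∨ v = u then 1 else 0 := by
  rw [← SimpleGraph.card_neighborFinset_eq_degree]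
  have key : (SimpleGraph.fromEdgeSet
      ((({s(p, q), s(r, u)} : Finset (Sym2 (Fin n))) : Set (Sym2 (Fin n))))).neighborFinset v =
      if v = p then {q} else if v = q then {p} else if v = r then {u}
        else if v = u then {r} else ∅ := by
    ext w
    rw [SimpleGraph.mem_neighborFinset, adj_iff]
    split_ifs with h1 h2 h3 h4
    · subst h1; rw [Finset.mem_singleton]; constructor
      · rintro ⟨h | h | h | h, _⟩
        · exact h.2
        · exact absurd h.1 hpq
        · exact absurd h.1 hpr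
        · exact absurd h.1 hpu
      · intro h; subst h; exact ⟨Or.inl ⟨rfl, rfl⟩, hpq⟩
    · subst h2; rw [Finset.mem_singleton]; constructor
      · rintro ⟨h | h | h | h, _⟩
        · exact absurd h.1 (Ne.symm hpq)
        · exact h.2
        · exact absurd h.1 hqr
        · exact absurd h.1 hqu
      · intro h; subst h; exact ⟨Or.inr (Or.inl ⟨rfl, rfl⟩), Ne.symm hpq⟩
    · subst h3; rw [Finset.mem_singleton]; constructor
      · rintro ⟨h | h | h | h, _⟩
        · exact absurd h.1 (Ne.symm hpr)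
        · exact absurd h.1 (Ne.symm hqr)
        · exact h.2
        · exact absurd h.1 hru
      · intro h; subst h; exact ⟨Or.inr (Or.inr (Or.inl ⟨rfl, rfl⟩)), hru⟩
    · subst h4; rw [Finset.mem_singleton]; constructor
      · rintro ⟨h | h | h | h, _⟩
        · exact absurd h.1 (Ne.symm hpu)
        · exact absurd h.1 (Ne.symm hqu)
        · exact absurd h.1 (Ne.symm hru)
        · exact h.2
      · intro h; subst h; exact ⟨Or.inr (Or.inr (Or.inr ⟨rfl, rfl⟩)), Ne.symm hru⟩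
    · constructor
      · rintro ⟨h | h | h | h, _⟩
        · exact absurd h.1 h1
        · exact absurd h.1 h2
        · exact absurd h.1 h3
        · exact absurd h.1 h4
      · intro h; exact absurd h (Finset.notMem_empty w)
  rw [key]
  by_cases h1 : v = p
  · rw [if_pos h1, if_pos (Or.inl h1)]; exact Finset.card_singleton _
  by_cases h2 : v = q
  · rw [if_neg h1, if_pos h2, if_pos (Or.inr (Or.inl h2))]; exact Finset.card_singleton _
  by_cases h3 : v = r
  · rw [if_neg h1, if_neg h2, if_pos h3, if_pos (Or.inr (Or.inr (Or.inl h3)))]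
    exact Finset.card_singleton _
  by_cases h4 : v = u
  · rw [if_neg h1, if_neg h2, if_neg h3, if_pos h4, if_pos (Or.inr (Or.inr (Or.inr h4)))]
    exact Finset.card_singleton _
  rw [if_neg h1, if_neg h2, if_neg h3, if_neg h4, if_neg (by tauto)]
  exact Finset.card_empty

theorem pair_ne (p q r u : Fin n) (hpr : p ≠ r) (hpu : p ≠ u) : s(p, q) ≠ s(r, u) := by
  intro h
  rw [Sym2.eq_iff] at h
  rcases h with h | h
  · exact hpr h.1
  · exact hpu h.1

theorem isPM_pair (S : Finset (Fin n)) (p q r u : Fin n) (hpq : p ≠ q) (hru : r ≠ u)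
    (hpr : p ≠ r) (hpu : p ≠ u)
    (hS : ∀ v, v ∈ S ↔ v = p ∨ v = q ∨ v = r ∨ v = u) :
    IsPerfectMatchingOn S {s(p, q), s(r, u)} := by
  refine ⟨Finset.card_pair (pair_ne p q r u hpr hpu), ?_, ?_⟩
  · intro e he
    rw [Finset.mem_insert, Finset.mem_singleton] at he
    rcases he with rfl | rfl
    · rw [Sym2.mk_isDiag_iff]; exact hpq
    · rw [Sym2.mk_isDiag_iff]; exact hru
  · intro v
    rw [hS]
    constructor
    · rintro (h | h | h | h)
      · exact ⟨s(p, q), by simp, by simp [h]⟩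
      · exact ⟨s(p, q), by simp, by simp [h]⟩
      · exact ⟨s(r, u), by simp, by simp [h]⟩
      · exact ⟨s(r, u), by simp, by simp [h]⟩
    · rintro ⟨e, he, hv⟩
      rw [Finset.mem_insert, Finset.mem_singleton] at he
      rcases he with rfl | rfl
      · rw [Sym2.mem_iff] at hv; tauto
      · rw [Sym2.mem_iff] at hv; tauto

theorem pm_aux (p q r u : Fin n) (hpq : p ≠ q) (hru : r ≠ u) (hpr : p ≠ r)
    (hpu : p ≠ u) (hqr : q ≠ r) (hqu : q ≠ u) (e1 e2 : Sym2 (Fin n))
    (h1 : ¬ e1.IsDiag)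
    (hcov : ∀ v, (v = p ∨ v = q ∨ v = r ∨ v = u) ↔ (v ∈ e1 ∨ v ∈ e2)) (hp : p ∈ e1) :
    (e1 = s(p, q) ∧ e2 = s(r, u)) ∨ (e1 = s(p, r) ∧ e2 = s(q, u)) ∨
      (e1 = s(p, u) ∧ e2 = s(q, r)) := by
  obtain ⟨y, rfl⟩ := (Sym2.mem_iff_exists).mp hp
  rw [Sym2.mk_isDiag_iff] at h1
  have hy : y = p ∨ y = q ∨ y = r ∨ y = u := (hcov y).mpr (Or.inl (Sym2.mem_mk_right p y))
  have mem_e2 : ∀ x, (x = p ∨ x = q ∨ x = r ∨ x = u) → x ≠ p → x ≠ y → x ∈ e2 := by
    intro x hx hxp hxy
    rcases (hcov x).mp hx with h | h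
    · rw [Sym2.mem_iff] at h
      rcases h with h | h
      · exact absurd h hxp
      · exact absurd h hxy
    · exact h
  rcases hy with rfl | rfl | rfl | rfl
  · exact absurd rfl h1
  · left
    refine ⟨rfl, ?_⟩
    exact (Sym2.mem_and_mem_iff hru).mp
      ⟨mem_e2 r (by tauto) (Ne.symm hpr) (Ne.symm hqr),
        mem_e2 u (by tauto) (Ne.symm hpu) (Ne.symm hqu)⟩
  · right; left
    refine ⟨rfl, ?_⟩
    exact (Sym2.mem_and_mem_iff hqu).mp
      ⟨mem_e2 q (by tauto) (Ne.symm hpq) hqr, mem_e2 u (by tauto) (Ne.symm hpu) (Ne.symm hru)⟩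
  · right; right
    refine ⟨rfl, ?_⟩
    exact (Sym2.mem_and_mem_iff hqr).mp
      ⟨mem_e2 q (by tauto) (Ne.symm hpq) hqu, mem_e2 r (by tauto) (Ne.symm hpr) hru⟩

theorem pm_classify (S : Finset (Fin n)) (p q r u : Fin n) (hpq : p ≠ q) (hru : r ≠ u)
    (hpr : p ≠ r) (hpu : p ≠ u) (hqr : q ≠ r) (hqu : q ≠ u)
    (hS : ∀ v, v ∈ S ↔ v = p ∨ v = q ∨ v = r ∨ v = u)
    (F : Finset (Sym2 (Fin n))) (hF : IsPerfectMatchingOn S F) :
    F = {s(p, q), s(r, u)} ∨ F = {s(p, r), s(q, u)} ∨ F = {s(p, u), s(q, r)} := by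
  obtain ⟨hcard, hdiag, hcov⟩ := hF
  obtain ⟨e1, e2, hne, rfl⟩ := Finset.card_eq_two.mp hcard
  have hcov' : ∀ v, (v = p ∨ v = q ∨ v = r ∨ v = u) ↔ (v ∈ e1 ∨ v ∈ e2) := by
    intro v
    rw [← hS, hcov]
    constructor
    · rintro ⟨e, he, hv⟩
      rw [Finset.mem_insert, Finset.mem_singleton] at he
      rcases he with rfl | rfl
      · exact Or.inl hv
      · exact Or.inr hv
    · rintro (h | h)
      · exact ⟨e1, by simp, h⟩
      · exact ⟨e2, by simp, h⟩
  have hp : p ∈ e1 ∨ p ∈ e2 := (hcov' p).mp (Or.inl rfl)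
  rcases hp with hp | hp
  · rcases pm_aux p q r u hpq hru hpr hpu hqr hqu e1 e2 (hdiag e1 (by simp)) hcov' hp with
      ⟨rfl, rfl⟩ | ⟨rfl, rfl⟩ | ⟨rfl, rfl⟩
    · exact Or.inl rfl
    · exact Or.inr (Or.inl rfl)
    · exact Or.inr (Or.inr rfl)
  · have hcov'' : ∀ v, (v = p ∨ v = q ∨ v = r ∨ v = u) ↔ (v ∈ e2 ∨ v ∈ e1) := by
      intro v; rw [hcov' v]; exact or_comm
    rcases pm_aux p q r u hpq hru hpr hpu hqr hqu e2 e1 (hdiag e2 (by simp)) hcov'' hp with
      ⟨rfl, rfl⟩ | ⟨rfl, rfl⟩ | ⟨rfl, rfl⟩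
    · exact Or.inl (Finset.pair_comm _ _)
    · exact Or.inr (Or.inl (Finset.pair_comm _ _))
    · exact Or.inr (Or.inr (Finset.pair_comm _ _))

theorem pairset_ne (p q r u : Fin n) (hpq : p ≠ q) (hpu : p ≠ u) (hqr : q ≠ r) :
    ({s(p, q), s(r, u)} : Finset (Sym2 (Fin n))) ≠ {s(p, r), s(q, u)} := by
  intro h
  have h1 : s(p, q) ∈ ({s(p, r), s(q, u)} : Finset (Sym2 (Fin n))) := by
    rw [← h]; simp
  rw [Finset.mem_insert, Finset.mem_singleton, Sym2.eq_iff, Sym2.eq_iff] at h1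
  rcases h1 with (h1 | h1) | (h1 | h1)
  · exact hqr h1.2
  · exact hpq h1.2.symm
  · exact hpq h1.1
  · exact hpu h1.1

theorem six_le_fiber (S : Finset (Fin n)) (hS : S.card = 4) :
    6 ≤ ((moves n).filter (fun m => m.1 = S)).card := by
  classical
  obtain ⟨p, T, hpT, rfl, hT⟩ := Finset.card_eq_succ.mp hS
  obtain ⟨q, r, u, hqr, hqu, hru, rfl⟩ := Finset.card_eq_three.mp hT
  have hpq : p ≠ q := by intro h; apply hpT; simp [h]
  have hpr : p ≠ r := by intro h; apply hpT; simp [h]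
  have hpu : p ≠ u := by intro h; apply hpT; simp [h]
  have hmem : ∀ v, v ∈ insert p ({q, r, u} : Finset (Fin n)) ↔ v = p ∨ v = q ∨ v = r ∨ v = u := by
    intro v; simp
  have hmem2 : ∀ v, v ∈ insert p ({q, r, u} : Finset (Fin n)) ↔ v = p ∨ v = r ∨ v = q ∨ v = u := by
    intro v; simp; tauto
  have hmem3 : ∀ v, v ∈ insert p ({q, r, u} : Finset (Fin n)) ↔ v = p ∨ v = u ∨ v = q ∨ v = r := by
    intro v; simp; tauto
  have pm1 := isPM_pair _ p q r u hpq hru hpr hpu hmem
  have pm2 := isPM_pair _ p r q u hpr hqu hpq hpu hmem2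
  have pm3 := isPM_pair _ p u q r hpu hqr hpq hpr hmem3
  have h12 : ({s(p, q), s(r, u)} : Finset (Sym2 (Fin n))) ≠ {s(p, r), s(q, u)} :=
    pairset_ne p q r u hpq hpu hqr
  have h13 : ({s(p, q), s(r, u)} : Finset (Sym2 (Fin n))) ≠ {s(p, u), s(q, r)} := by
    have := pairset_ne p q u r hpq hpr hqu
    rwa [Sym2.eq_swap (a := u) (b := r)] at this
  have h23 : ({s(p, r), s(q, u)} : Finset (Sym2 (Fin n))) ≠ {s(p, u), s(q, r)} := by
    have := pairset_ne p r u q hpr hpq hru
    rwa [Sym2.eq_swap (a := u) (b := q), Sym2.eq_swap (a := r) (b := q)] at this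
  set S0 : Finset (Fin n) := insert p ({q, r, u} : Finset (Fin n)) with hS0
  set G1 : Finset (Sym2 (Fin n)) := {s(p, q), s(r, u)} with hG1
  set G2 : Finset (Sym2 (Fin n)) := {s(p, r), s(q, u)} with hG2
  set G3 : Finset (Sym2 (Fin n)) := {s(p, u), s(q, r)} with hG3
  have hsub : ({(S0, G1, G2), (S0, G1, G3), (S0, G2, G1), (S0, G2, G3), (S0, G3, G1),
      (S0, G3, G2)} : Finset (Finset (Fin n) × Finset (Sym2 (Fin n)) × Finset (Sym2 (Fin n)))) ⊆
      (moves n).filter (fun m => m.1 = S0) := by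
    intro m hm
    simp only [Finset.mem_insert, Finset.mem_singleton] at hm
    simp only [moves, Finset.mem_filter, Finset.mem_univ, true_and]
    rcases hm with rfl | rfl | rfl | rfl | rfl | rfl
    · exact ⟨⟨hS, pm1, pm2, h12⟩, rfl⟩
    · exact ⟨⟨hS, pm1, pm3, h13⟩, rfl⟩
    · exact ⟨⟨hS, pm2, pm1, Ne.symm h12⟩, rfl⟩
    · exact ⟨⟨hS, pm2, pm3, h23⟩, rfl⟩
    · exact ⟨⟨hS, pm3, pm1, Ne.symm h13⟩, rfl⟩
    · exact ⟨⟨hS, pm3, pm2, Ne.symm h23⟩, rfl⟩
  have hcard : ({(S0, G1, G2), (S0, G1, G3), (S0, G2, G1), (S0, G2, G3), (S0, G3, G1),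
      (S0, G3, G2)} : Finset (Finset (Fin n) × Finset (Sym2 (Fin n)) × Finset (Sym2 (Fin n)))).card
      = 6 := by
    rw [Finset.card_insert_of_notMem, Finset.card_insert_of_notMem, Finset.card_insert_of_notMem,
      Finset.card_insert_of_notMem, Finset.card_insert_of_notMem, Finset.card_singleton]
    all_goals simp [Prod.ext_iff, h12, h13, h23, Ne.symm h12, Ne.symm h13, Ne.symm h23]
  calc 6 = _ := hcard.symm
    _ ≤ _ := Finset.card_le_card hsub

theorem moves_card_ge (n : ℕ) : 6 * n.choose 4 ≤ (moves n).card := by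
  classical
  have H : ∀ m ∈ moves n, m.1 ∈ Finset.powersetCard 4 (Finset.univ : Finset (Fin n)) := by
    intro m hm
    simp only [moves, Finset.mem_filter, Finset.mem_univ, true_and] at hm
    rw [Finset.mem_powersetCard]
    exact ⟨Finset.subset_univ _, hm.1⟩
  rw [Finset.card_eq_sum_card_fiberwise H]
  calc 6 * n.choose 4 = ∑ _S ∈ Finset.powersetCard 4 (Finset.univ : Finset (Fin n)), 6 := by
        rw [Finset.sum_const, Finset.card_powersetCard, Finset.card_univ, Fintype.card_fin]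
        simp [mul_comm]
    _ ≤ _ := by
        apply Finset.sum_le_sum
        intro S hS
        rw [Finset.mem_powersetCard] at hS
        exact six_le_fiber S hS.2

theorem lt_four_iff (hn : 4 ≤ n) (i : Fin n) :
    i.val < 4 ↔ i = (⟨0, by omega⟩ : Fin n) ∨ i = (⟨1, by omega⟩ : Fin n) ∨
      i = (⟨2, by omega⟩ : Fin n) ∨ i = (⟨3, by omega⟩ : Fin n) := by
  simp only [Fin.ext_iff]
  omega

theorem pairGraph_mem (p q r u : Fin n) (hpq : p ≠ q) (hru : r ≠ u) (hpr : p ≠ r)
    (hpu : p ≠ u) (hqr : q ≠ r) (hqu : q ≠ u)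
    (hcov : ∀ i : Fin n, i.val < 4 ↔ i = p ∨ i = q ∨ i = r ∨ i = u) :
    SimpleGraph.fromEdgeSet
      ((({s(p, q), s(r, u)} : Finset (Sym2 (Fin n))) : Set (Sym2 (Fin n)))) ∈
      realizations n (fun i : Fin n => if i.val < 4 then 1 else 0) := by
  classical
  simp only [realizations, Finset.mem_filter, Finset.mem_univ, true_and]
  intro i
  have key : ∀ (inst : Fintype ((SimpleGraph.fromEdgeSet
      ((({s(p, q), s(r, u)} : Finset (Sym2 (Fin n))) : Set (Sym2 (Fin n))))).neighborSet i)),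
      @SimpleGraph.degree _ (SimpleGraph.fromEdgeSet
        ((({s(p, q), s(r, u)} : Finset (Sym2 (Fin n))) : Set (Sym2 (Fin n))))) i inst =
        if i = p ∨ i = q ∨ i = r ∨ i = u then 1 else 0 :=
    fun inst => @degree_pairGraph n p q r u hpq hru hpr hpu hqr hqu i inst
  exact (key _).trans (if_congr (hcov i).symm rfl rfl)

theorem pairGraph_ne (p q r u : Fin n) (hpq : p ≠ q) (hpu : p ≠ u) (hqr : q ≠ r) :
    SimpleGraph.fromEdgeSet
      ((({s(p, q), s(r, u)} : Finset (Sym2 (Fin n))) : Set (Sym2 (Fin n)))) ≠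
    SimpleGraph.fromEdgeSet
      ((({s(p, r), s(q, u)} : Finset (Sym2 (Fin n))) : Set (Sym2 (Fin n)))) := by
  intro h
  have h1 : (SimpleGraph.fromEdgeSet
      ((({s(p, q), s(r, u)} : Finset (Sym2 (Fin n))) : Set (Sym2 (Fin n))))).Adj p q :=
    (adj_iff p q r u p q).mpr ⟨Or.inl ⟨rfl, rfl⟩, hpq⟩
  rw [h] at h1
  rcases (adj_iff p r q u p q).mp h1 with ⟨h2 | h2 | h2 | h2, _⟩
  · exact hqr h2.2
  · exact hpq h2.2.symm
  · exact hpq h2.1
  · exact hpu h2.1

theorem three_le_card (hn : 4 ≤ n) :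
    3 ≤ (realizations n (fun i : Fin n => if i.val < 4 then 1 else 0)).card := by
  classical
  have hab : (⟨0, by omega⟩ : Fin n) ≠ ⟨1, by omega⟩ := by simp [Fin.ext_iff]
  have hac : (⟨0, by omega⟩ : Fin n) ≠ ⟨2, by omega⟩ := by simp [Fin.ext_iff]
  have hae : (⟨0, by omega⟩ : Fin n) ≠ ⟨3, by omega⟩ := by simp [Fin.ext_iff]
  have hbc : (⟨1, by omega⟩ : Fin n) ≠ ⟨2, by omega⟩ := by simp [Fin.ext_iff]
  have hbe : (⟨1, by omega⟩ : Fin n) ≠ ⟨3, by omega⟩ := by simp [Fin.ext_iff]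
  have hce : (⟨2, by omega⟩ : Fin n) ≠ ⟨3, by omega⟩ := by simp [Fin.ext_iff]
  have hcov1 := lt_four_iff hn
  have hcov2 : ∀ i : Fin n, i.val < 4 ↔ i = (⟨0, by omega⟩ : Fin n) ∨ i = (⟨2, by omega⟩ : Fin n) ∨
      i = (⟨1, by omega⟩ : Fin n) ∨ i = (⟨3, by omega⟩ : Fin n) := by
    intro i; rw [hcov1 i]; tauto
  have hcov3 : ∀ i : Fin n, i.val < 4 ↔ i = (⟨0, by omega⟩ : Fin n) ∨ i = (⟨3, by omega⟩ : Fin n) ∨
      i = (⟨1, by omega⟩ : Fin n) ∨ i = (⟨2, by omega⟩ : Fin n) := by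
    intro i; rw [hcov1 i]; tauto
  have hM1 := pairGraph_mem (⟨0, by omega⟩ : Fin n) ⟨1, by omega⟩ ⟨2, by omega⟩ ⟨3, by omega⟩
    hab hce hac hae hbc hbe hcov1
  have hM2 := pairGraph_mem (⟨0, by omega⟩ : Fin n) ⟨2, by omega⟩ ⟨1, by omega⟩ ⟨3, by omega⟩
    hac hbe hab hae (Ne.symm hbc) hce hcov2
  have hM3 := pairGraph_mem (⟨0, by omega⟩ : Fin n) ⟨3, by omega⟩ ⟨1, by omega⟩ ⟨2, by omega⟩
    hae hbc hab hac (Ne.symm hbe) (Ne.symm hce) hcov3
  have h12 := pairGraph_ne (⟨0, by omega⟩ : Fin n) ⟨1, by omega⟩ ⟨2, by omega⟩ ⟨3, by omega⟩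
    hab hae hbc
  have h13 := pairGraph_ne (⟨0, by omega⟩ : Fin n) ⟨1, by omega⟩ ⟨3, by omega⟩ ⟨2, by omega⟩
    hab hac hbe
  have h23 := pairGraph_ne (⟨0, by omega⟩ : Fin n) ⟨2, by omega⟩ ⟨3, by omega⟩ ⟨1, by omega⟩
    hac hab hce
  rw [Sym2.eq_swap (a := (⟨3, by omega⟩ : Fin n)) (b := ⟨2, by omega⟩)] at h13
  rw [Sym2.eq_swap (a := (⟨3, by omega⟩ : Fin n)) (b := ⟨1, by omega⟩),
    Sym2.eq_swap (a := (⟨2, by omega⟩ : Fin n)) (b := ⟨1, by omega⟩)] at h23
  have hsub : ({SimpleGraph.fromEdgeSet ((({s((⟨0, by omega⟩ : Fin n), ⟨1, by omega⟩),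
        s((⟨2, by omega⟩ : Fin n), ⟨3, by omega⟩)} : Finset (Sym2 (Fin n))) : Set (Sym2 (Fin n)))),
      SimpleGraph.fromEdgeSet ((({s((⟨0, by omega⟩ : Fin n), ⟨2, by omega⟩),
        s((⟨1, by omega⟩ : Fin n), ⟨3, by omega⟩)} : Finset (Sym2 (Fin n))) : Set (Sym2 (Fin n)))),
      SimpleGraph.fromEdgeSet ((({s((⟨0, by omega⟩ : Fin n), ⟨3, by omega⟩),
        s((⟨1, by omega⟩ : Fin n), ⟨2, by omega⟩)} : Finset (Sym2 (Fin n))) : Set (Sym2 (Fin n))))} :
      Finset (SimpleGraph (Fin n))) ⊆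
      realizations n (fun i : Fin n => if i.val < 4 then 1 else 0) := by
    intro G hG
    simp only [Finset.mem_insert, Finset.mem_singleton] at hG
    rcases hG with rfl | rfl | rfl
    · exact hM1
    · exact hM2
    · exact hM3
  refine le_trans (le_of_eq ?_) (Finset.card_le_card hsub)
  rw [Finset.card_insert_of_notMem, Finset.card_insert_of_notMem, Finset.card_singleton]
  · rw [Finset.mem_singleton]; exact h23
  · rw [Finset.mem_insert, Finset.mem_singleton]
    rintro (h | h)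
    · exact h12 h
    · exact h13 h

open Classical in
theorem bad_moves_le (p q r u : Fin n) (hpq : p ≠ q) (hru : r ≠ u) (hpr : p ≠ r)
    (hpu : p ≠ u) (hqr : q ≠ r) (hqu : q ≠ u) :
    ((moves n).filter (fun m => applyMove (SimpleGraph.fromEdgeSet
      ((({s(p, q), s(r, u)} : Finset (Sym2 (Fin n))) : Set (Sym2 (Fin n))))) m ≠
      SimpleGraph.fromEdgeSet
      ((({s(p, q), s(r, u)} : Finset (Sym2 (Fin n))) : Set (Sym2 (Fin n)))))).card ≤ 2 := by
  classical
  have hF1card : ({s(p, q), s(r, u)} : Finset (Sym2 (Fin n))).card = 2 :=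
    Finset.card_pair (pair_ne p q r u hpr hpu)
  have hsub : (moves n).filter (fun m => applyMove (SimpleGraph.fromEdgeSet
      ((({s(p, q), s(r, u)} : Finset (Sym2 (Fin n))) : Set (Sym2 (Fin n))))) m ≠
      SimpleGraph.fromEdgeSet
      ((({s(p, q), s(r, u)} : Finset (Sym2 (Fin n))) : Set (Sym2 (Fin n))))) ⊆
      {(({p, q, r, u} : Finset (Fin n)), ({s(p, q), s(r, u)} : Finset (Sym2 (Fin n))),
          ({s(p, r), s(q, u)} : Finset (Sym2 (Fin n)))),
        (({p, q, r, u} : Finset (Fin n)), ({s(p, q), s(r, u)} : Finset (Sym2 (Fin n))),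
          ({s(p, u), s(q, r)} : Finset (Sym2 (Fin n))))} := by
    intro m hm
    rw [Finset.mem_filter] at hm
    obtain ⟨hmoves, hneq⟩ := hm
    simp only [moves, Finset.mem_filter, Finset.mem_univ, true_and] at hmoves
    obtain ⟨hS4, hF, hF', hFne⟩ := hmoves
    unfold applyMove at hneq
    by_cases hcond : (∀ x ∈ m.2.1, x ∈ (SimpleGraph.fromEdgeSet
        ((({s(p, q), s(r, u)} : Finset (Sym2 (Fin n))) : Set (Sym2 (Fin n))))).edgeSet) ∧
        (∀ x ∈ m.2.2, x ∉ (SimpleGraph.fromEdgeSet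
        ((({s(p, q), s(r, u)} : Finset (Sym2 (Fin n))) : Set (Sym2 (Fin n))))).edgeSet)
    · have hsubF : m.2.1 ⊆ ({s(p, q), s(r, u)} : Finset (Sym2 (Fin n))) := by
        intro x hx
        have hx1 := hcond.1 x hx
        rw [SimpleGraph.edgeSet_fromEdgeSet] at hx1
        exact_mod_cast hx1.1
      have hFeq : m.2.1 = ({s(p, q), s(r, u)} : Finset (Sym2 (Fin n))) :=
        Finset.eq_of_subset_of_card_le hsubF (by rw [hF.1, hF1card])
      have hSmem : ∀ v, v ∈ m.1 ↔ v = p ∨ v = q ∨ v = r ∨ v = u := by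
        intro v
        rw [hF.2.2 v, hFeq]
        constructor
        · rintro ⟨x, hx, hv⟩
          rw [Finset.mem_insert, Finset.mem_singleton] at hx
          rcases hx with rfl | rfl
          · rw [Sym2.mem_iff] at hv; tauto
          · rw [Sym2.mem_iff] at hv; tauto
        · rintro (h | h | h | h)
          · exact ⟨s(p, q), by simp, by simp [h]⟩
          · exact ⟨s(p, q), by simp, by simp [h]⟩
          · exact ⟨s(r, u), by simp, by simp [h]⟩
          · exact ⟨s(r, u), by simp, by simp [h]⟩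
      have hS : m.1 = ({p, q, r, u} : Finset (Fin n)) := by
        ext v; rw [hSmem]; simp
      rcases pm_classify m.1 p q r u hpq hru hpr hpu hqr hqu hSmem m.2.2 hF' with h | h | h
      · exact absurd (hFeq.trans h.symm) hFne
      · rw [Finset.mem_insert]; left
        exact Prod.ext hS (Prod.ext hFeq h)
      · rw [Finset.mem_insert, Finset.mem_singleton]; right
        exact Prod.ext hS (Prod.ext hFeq h)
    · rw [if_neg hcond] at hneq
      exact absurd rfl hneq
  exact le_trans (Finset.card_le_card hsub) Finset.card_le_two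

open Classical in
theorem kernel_self_ge (hn : 4 ≤ n) (G : SimpleGraph (Fin n))
    (hbad : ((moves n).filter (fun m => applyMove G m ≠ G)).card ≤ 2) :
    1 - 1 / (6 * (n.choose 4 : ℝ)) ≤ kernel n G G := by
  classical
  have hgood : 6 * n.choose 4 ≤ ((moves n).filter (fun m => applyMove G m = G)).card + 2 := by
    have h1 := Finset.card_filter_add_card_filter_not (s := moves n)
      (fun m => applyMove G m = G)
    have h2 := moves_card_ge n
    have hbad' : ((moves n).filter (fun m => ¬ applyMove G m = G)).card ≤ 2 := by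
      convert hbad using 2
    omega
  have hC : (1 : ℝ) ≤ (n.choose 4 : ℝ) := by exact_mod_cast Nat.choose_pos hn
  have hCpos : (0 : ℝ) < (n.choose 4 : ℝ) := by linarith
  unfold kernel
  rw [if_pos rfl]
  have hg : 6 * (n.choose 4 : ℝ) - 2 ≤
      (((moves n).filter (fun m => applyMove G m = G)).card : ℝ) := by
    have h3 : ((6 * n.choose 4 : ℕ) : ℝ) ≤
        ((((moves n).filter (fun m => applyMove G m = G)).card + 2 : ℕ) : ℝ) := by
      exact_mod_cast hgood
    push_cast at h3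
    linarith
  have h4 : (1 / 2) * (1 / (n.choose 4 : ℝ)) * (1 / 6) * (6 * (n.choose 4 : ℝ) - 2) ≤
      (1 / 2) * (1 / (n.choose 4 : ℝ)) * (1 / 6) *
        (((moves n).filter (fun m => applyMove G m = G)).card : ℝ) :=
    mul_le_mul_of_nonneg_left hg (by positivity)
  have e1 : (1 / 2) * (1 / (n.choose 4 : ℝ)) * (1 / 6) * (6 * (n.choose 4 : ℝ) - 2) =
      1 / 2 - 1 / (6 * (n.choose 4 : ℝ)) := by
    field_simp
  linarith

theorem walk_self_ge (d : Fin n → ℕ) (G : SimpleGraph (Fin n)) (hG : G ∈ realizations n d)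
    (x : ℝ) (hx0 : 0 ≤ x) (hx : x ≤ kernel n G G) (s : ℕ) : x ^ s ≤ walk n d s G G := by
  induction s with
  | zero => simp [walk_zero]
  | succ s ih =>
    calc x ^ (s + 1) = x ^ s * x := pow_succ _ _
      _ ≤ walk n d s G G * kernel n G G := mul_le_mul ih hx hx0 (walk_nonneg n d s G G)
      _ ≤ walk n d (s + 1) G G := by
          rw [walk_succ]
          exact Finset.single_le_sum (f := fun K => walk n d s G K * kernel n K G)
            (fun K _ => mul_nonneg (walk_nonneg n d s G K) (kernel_nonneg n K G)) hG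

theorem walk_self_le_of_mixed (d : Fin n → ℕ) (G : SimpleGraph (Fin n))
    (hG : G ∈ realizations n d) (h3 : 3 ≤ (realizations n d).card) (t : ℕ)
    (htv : tvToUniform n d t G ≤ 1 / 4) : walk n d t G G ≤ 5 / 6 := by
  unfold tvToUniform at htv
  have hterm : |walk n d t G G - 1 / ((realizations n d).card : ℝ)| ≤
      ∑ H ∈ realizations n d, |walk n d t G H - 1 / ((realizations n d).card : ℝ)| :=
    Finset.single_le_sum
      (f := fun H => |walk n d t G H - 1 / ((realizations n d).card : ℝ)|)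
      (fun H _ => abs_nonneg _) hG
  have hpi : 1 / ((realizations n d).card : ℝ) ≤ 1 / 3 := by
    apply one_div_le_one_div_of_le (by norm_num)
    exact_mod_cast h3
  have habs := le_abs_self (walk n d t G G - 1 / ((realizations n d).card : ℝ))
  linarith

/-- For `d = (1,1,1,1,0,...,0)` on `n ≥ 4` vertices, every time `t` at which the switch chain is
within total variation distance `1/4` of uniform from every starting realization satisfies
`t ≥ C(n,4)`. -/
theorem result (n : ℕ) (hn : 4 ≤ n) (t : ℕ)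
    (hmix : ∀ G ∈ realizations n (fun i : Fin n => if i.val < 4 then 1 else 0),
      tvToUniform n (fun i : Fin n => if i.val < 4 then 1 else 0) t G ≤ 1 / 4) :
    (n.choose 4 : ℝ) ≤ (t : ℝ) := by
  have hab : (⟨0, by omega⟩ : Fin n) ≠ ⟨1, by omega⟩ := by simp [Fin.ext_iff]
  have hac : (⟨0, by omega⟩ : Fin n) ≠ ⟨2, by omega⟩ := by simp [Fin.ext_iff]
  have hae : (⟨0, by omega⟩ : Fin n) ≠ ⟨3, by omega⟩ := by simp [Fin.ext_iff]
  have hbc : (⟨1, by omega⟩ : Fin n) ≠ ⟨2, by omega⟩ := by simp [Fin.ext_iff]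
  have hbe : (⟨1, by omega⟩ : Fin n) ≠ ⟨3, by omega⟩ := by simp [Fin.ext_iff]
  have hce : (⟨2, by omega⟩ : Fin n) ≠ ⟨3, by omega⟩ := by simp [Fin.ext_iff]
  have hM1 := pairGraph_mem (⟨0, by omega⟩ : Fin n) ⟨1, by omega⟩ ⟨2, by omega⟩ ⟨3, by omega⟩
    hab hce hac hae hbc hbe (lt_four_iff hn)
  have hbad := bad_moves_le (⟨0, by omega⟩ : Fin n) ⟨1, by omega⟩ ⟨2, by omega⟩ ⟨3, by omega⟩
    hab hce hac hae hbc hbe
  have hker := kernel_self_ge hn _ hbad
  have hC : (1 : ℝ) ≤ (n.choose 4 : ℝ) := by exact_mod_cast Nat.choose_pos hn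
  have hCpos : (0 : ℝ) < (n.choose 4 : ℝ) := by linarith
  have hx1 : 1 / (6 * (n.choose 4 : ℝ)) ≤ 1 := by
    rw [div_le_one (by positivity)]
    linarith
  have hx0 : 0 ≤ 1 - 1 / (6 * (n.choose 4 : ℝ)) := by linarith
  have hwalk := walk_self_ge _ _ hM1 _ hx0 hker t
  have h5 := walk_self_le_of_mixed _ _ hM1 (three_le_card hn) t (hmix _ hM1)
  have hbern : 1 - (t : ℝ) * (1 / (6 * (n.choose 4 : ℝ))) ≤
      (1 - 1 / (6 * (n.choose 4 : ℝ))) ^ t := by
    have h := one_add_mul_le_pow (a := -(1 / (6 * (n.choose 4 : ℝ)))) (by linarith) t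
    have e2 : 1 + (t : ℝ) * -(1 / (6 * (n.choose 4 : ℝ))) =
        1 - (t : ℝ) * (1 / (6 * (n.choose 4 : ℝ))) := by ring
    have e3 : 1 + -(1 / (6 * (n.choose 4 : ℝ))) = 1 - 1 / (6 * (n.choose 4 : ℝ)) := by ring
    rw [e2, e3] at h
    exact h
  have h6 : (1 : ℝ) / 6 ≤ (t : ℝ) * (1 / (6 * (n.choose 4 : ℝ))) := by linarith
  rw [mul_one_div, le_div_iff₀ (by positivity)] at h6
  linarith

end Vale.Agent.Results.P335.QuarticLowerBound
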